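import Mathlib
import Vale.Agent.Lib.P037.H20.JSample

namespace Vale.Agent.Results.P037.H20_SingleOneRemoval

open Finset Vale.Agent.Lib.P037.H20

/-- Number of ordered copies of the `k × k` binary pattern `H` in the `n × n` binary matrix `A`:
pairs of strictly increasing row and column index maps on which `A` agrees with `H`. -/
noncomputable def copyCount {k n : ℕ} (H : Fin k → Fin k → Bool) (A : Fin n → Fin n → Bool) : ℕ :=
  Nat.card {p : (Fin k → Fin n) × (Fin k → Fin n) //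
    StrictMono p.1 ∧ StrictMono p.2 ∧ ∀ i j, A (p.1 i) (p.2 j) = H i j}

/-- `A` contains no ordered copy of `H`. -/
def PatternFree {k n : ℕ} (H : Fin k → Fin k → Bool) (A : Fin n → Fin n → Bool) : Prop :=
  ∀ r c : Fin k → Fin n, StrictMono r → StrictMono c → ¬ ∀ i j, A (r i) (c j) = H i j

/-- Number of entries in which two `n × n` binary matrices differ. -/
noncomputable def diffCount {n : ℕ} (A B : Fin n → Fin n → Bool) : ℕ :=
  Nat.card {p : Fin n × Fin n // A p.1 p.2 ≠ B p.1 p.2}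

/-- The `2 × 2` single-one pattern, with rows `(1,0)` and `(0,0)`. -/
def singleOnePattern : Fin 2 → Fin 2 → Bool := fun i j => decide (i = 0 ∧ j = 0)

theorem jN_eq_card {n : ℕ} (A : Fin n → Fin n → Bool) :
    jN A = (univ.filter (fun p : Fin n × Fin n × Fin n × Fin n =>
      jcp A p.1 p.2.1 p.2.2.1 p.2.2.2)).card := by
  unfold jN
  rw [Finset.card_filter, Fintype.sum_prod_type]
  apply Finset.sum_congr rfl
  intro r _
  rw [Fintype.sum_prod_type]
  apply Finset.sum_congr rfl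
  intro r' _
  rw [Fintype.sum_prod_type]

theorem jN_le_copyCount {n : ℕ} (A : Fin n → Fin n → Bool) :
    jN A ≤ copyCount singleOnePattern A := by
  classical
  rw [jN_eq_card]
  unfold copyCount
  rw [Nat.card_eq_fintype_card, Fintype.card_subtype]
  apply Finset.card_le_card_of_injOn
    (fun p : Fin n × Fin n × Fin n × Fin n =>
      ((![p.1, p.2.1] : Fin 2 → Fin n), (![p.2.2.1, p.2.2.2] : Fin 2 → Fin n)))
  · intro p hp
    simp only [coe_filter, mem_univ, true_and, Set.mem_ofPred_eq] at hp ⊢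
    obtain ⟨h1, h2, h3, h4, h5, h6⟩ := hp
    refine ⟨?_, ?_, ?_⟩
    · intro i j hij
      fin_cases i <;> fin_cases j <;> simp_all
    · intro i j hij
      fin_cases i <;> fin_cases j <;> simp_all
    · intro i j
      fin_cases i <;> fin_cases j <;> simp [singleOnePattern, h3, h4, h5, h6]
  · intro p _ p' _ h
    simp only [Prod.mk.injEq] at h
    obtain ⟨h1, h2⟩ := h
    have e1 := congrFun h1 0
    have e2 := congrFun h1 1
    have e3 := congrFun h2 0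
    have e4 := congrFun h2 1
    simp only [Matrix.cons_val_zero, Matrix.cons_val_one] at e1 e2 e3 e4
    ext <;> simp_all

theorem patternFree_of_no_jcp {n : ℕ} (B : Fin n → Fin n → Bool)
    (h : ∀ r r' a b, ¬ jcp B r r' a b) : PatternFree singleOnePattern B := by
  intro r c hr hc hall
  apply h (r 0) (r 1) (c 0) (c 1)
  refine ⟨hr (by decide), hc (by decide), ?_, ?_, ?_, ?_⟩
  · have := hall 0 0
    simpa [singleOnePattern] using this
  · have := hall 0 1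
    simpa [singleOnePattern] using this
  · have := hall 1 0
    simpa [singleOnePattern] using this
  · have := hall 1 1
    simpa [singleOnePattern] using this

theorem diffCount_eq {n : ℕ} (A B : Fin n → Fin n → Bool) :
    diffCount A B = (univ.filter (fun p : Fin n × Fin n => A p.1 p.2 ≠ B p.1 p.2)).card := by
  classical
  unfold diffCount
  rw [Nat.card_eq_fintype_card, Fintype.card_subtype]

theorem no_jcp_of_jN_zero {n : ℕ} (A : Fin n → Fin n → Bool) (h : jN A = 0) :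
    ∀ r r' a b, ¬ jcp A r r' a b := by
  intro r r' a b hcp
  rw [jN_eq_card] at h
  have hmem : (r, r', a, b) ∈ univ.filter (fun p : Fin n × Fin n × Fin n × Fin n =>
      jcp A p.1 p.2.1 p.2.2.1 p.2.2.2) := by
    simp [hcp]
  rw [Finset.card_eq_zero] at h
  rw [h] at hmem
  exact absurd hmem (Finset.notMem_empty _)

theorem numeric (ε n q N s d x2 xb xt : ℝ) (hε0 : 0 < ε) (hε1 : ε < 1) (hn : 1 ≤ n)
    (hq1 : 1 ≤ q) (hqlo : 432 ≤ ε ^ 2 * q) (hqhi : ε ^ 2 * q ≤ 433) (hN : 0 ≤ N)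
    (hxb : 0 ≤ xb) (hxt : 0 ≤ xt)
    (h1 : ε * n ^ 2 ≤ s + n * d) (h2 : s ^ 2 ≤ n * (8 * xb + 16 * xt + 16 * n))
    (h3 : d ^ 2 ≤ 8 * q ^ 2 * (x2 + q ^ 2))
    (h5 : x2 * n ^ 2 ≤ 3 * q ^ 2 * N) (h6 : xb * (q + 1) ≤ 3 * n ^ 3)
    (h7 : xt * (q + 1) ≤ 3 * n ^ 3)
    (hbig : 10 ^ 26 < ε ^ 20 * n ^ 4) : ε ^ 20 / 10 ^ 26 * n ^ 4 ≤ N := by
  have hn0 : 0 < n := by linarith
  have hq0 : 0 < q := by linarith
  obtain ⟨E, hE⟩ : ∃ E : ℝ, E = ε ^ 2 := ⟨ε ^ 2, rfl⟩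
  rw [← hE] at hqlo hqhi
  have hE0 : 0 < E := by rw [hE]; positivity
  have hE1 : E < 1 := by rw [hE]; nlinarith
  have h432 : 432 ≤ E * (q + 1) := by
    have : E * q ≤ E * (q + 1) := by nlinarith
    linarith
  -- bounds on the tail terms
  have hxb' : 16 * n * xb ≤ E * n ^ 4 / 9 := by
    have ha : 432 * xb ≤ E * (q + 1) * xb := mul_le_mul_of_nonneg_right h432 hxb
    have hb : E * (xb * (q + 1)) ≤ E * (3 * n ^ 3) := mul_le_mul_of_nonneg_left h6 hE0.le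
    have hc : 432 * xb ≤ E * (3 * n ^ 3) := by nlinarith
    have hd' : n / 27 * (432 * xb) ≤ n / 27 * (E * (3 * n ^ 3)) :=
      mul_le_mul_of_nonneg_left hc (by positivity)
    have e1 : n / 27 * (432 * xb) = 16 * n * xb := by ring
    have e2 : n / 27 * (E * (3 * n ^ 3)) = E * n ^ 4 / 9 := by ring
    linarith
  have hxt' : 32 * n * xt ≤ 2 * (E * n ^ 4 / 9) := by
    have ha : 432 * xt ≤ E * (q + 1) * xt := mul_le_mul_of_nonneg_right h432 hxt
    have hb : E * (xt * (q + 1)) ≤ E * (3 * n ^ 3) := mul_le_mul_of_nonneg_left h7 hE0.le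
    have hc : 432 * xt ≤ E * (3 * n ^ 3) := by nlinarith
    have hd' : 2 * n / 27 * (432 * xt) ≤ 2 * n / 27 * (E * (3 * n ^ 3)) :=
      mul_le_mul_of_nonneg_left hc (by positivity)
    have e1 : 2 * n / 27 * (432 * xt) = 32 * n * xt := by ring
    have e2 : 2 * n / 27 * (E * (3 * n ^ 3)) = 2 * (E * n ^ 4 / 9) := by ring
    linarith
  -- square the far-ness inequality
  have hA : (ε * n ^ 2) ^ 2 ≤ (s + n * d) ^ 2 :=
    pow_le_pow_left₀ (by positivity) h1 2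
  have hA0 : (ε * n ^ 2) ^ 2 = E * n ^ 4 := by rw [hE]; ring
  have hA' : (s + n * d) ^ 2 ≤ 2 * s ^ 2 + 2 * n ^ 2 * d ^ 2 := by
    have := sq_nonneg (s - n * d)
    have e : 2 * s ^ 2 + 2 * n ^ 2 * d ^ 2 - (s + n * d) ^ 2 = (s - n * d) ^ 2 := by ring
    linarith
  have hB : 2 * s ^ 2 ≤ 16 * n * xb + 32 * n * xt + 32 * n ^ 2 := by
    have e : 2 * (n * (8 * xb + 16 * xt + 16 * n)) = 16 * n * xb + 32 * n * xt + 32 * n ^ 2 := by
      ring
    linarith
  have hC : 2 * n ^ 2 * d ^ 2 ≤ 16 * (q ^ 2 * (n ^ 2 * x2)) + 16 * (q ^ 4 * n ^ 2) := by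
    have h := mul_le_mul_of_nonneg_left h3 (by positivity : (0 : ℝ) ≤ 2 * n ^ 2)
    have e : 2 * n ^ 2 * (8 * q ^ 2 * (x2 + q ^ 2))
        = 16 * (q ^ 2 * (n ^ 2 * x2)) + 16 * (q ^ 4 * n ^ 2) := by ring
    linarith
  have hE' : n ^ 2 * x2 ≤ 3 * (q ^ 2 * N) := by
    have e : n ^ 2 * x2 = x2 * n ^ 2 := by ring
    linarith
  have hF : q ^ 2 * (n ^ 2 * x2) ≤ 3 * (q ^ 4 * N) := by
    have h := mul_le_mul_of_nonneg_left hE' (sq_nonneg q)
    have e : q ^ 2 * (3 * (q ^ 2 * N)) = 3 * (q ^ 4 * N) := by ring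
    linarith
  have hq2 : 1 ≤ q ^ 2 := by nlinarith
  have hq4 : q ^ 2 ≤ q ^ 4 := by
    have h := mul_le_mul_of_nonneg_left hq2 (sq_nonneg q)
    have e : q ^ 2 * q ^ 2 = q ^ 4 := by ring
    linarith
  have hq4' : 1 ≤ q ^ 4 := by linarith
  have e4 : n ^ 2 ≤ q ^ 4 * n ^ 2 := by
    have h := mul_le_mul_of_nonneg_right hq4' (sq_nonneg n)
    linarith
  have hmain : 2 / 3 * (E * n ^ 4) ≤ 48 * (q ^ 4 * N) + 48 * (q ^ 4 * n ^ 2) := by
    linarith
  have hmain2 : 2 / 3 * (E ^ 5 * n ^ 4) ≤ 48 * ((E * q) ^ 4 * N) + 48 * ((E * q) ^ 4 * n ^ 2) := by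
    have h := mul_le_mul_of_nonneg_left hmain (by positivity : (0 : ℝ) ≤ E ^ 4)
    have e5 : E ^ 4 * (2 / 3 * (E * n ^ 4)) = 2 / 3 * (E ^ 5 * n ^ 4) := by ring
    have e6 : E ^ 4 * (48 * (q ^ 4 * N) + 48 * (q ^ 4 * n ^ 2))
        = 48 * ((E * q) ^ 4 * N) + 48 * ((E * q) ^ 4 * n ^ 2) := by ring
    linarith
  have hEq4 : (E * q) ^ 4 ≤ 433 ^ 4 := pow_le_pow_left₀ (by positivity) hqhi 4
  have a1 : (E * q) ^ 4 * N ≤ 433 ^ 4 * N := mul_le_mul_of_nonneg_right hEq4 hN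
  have a2 : (E * q) ^ 4 * n ^ 2 ≤ 433 ^ 4 * n ^ 2 := mul_le_mul_of_nonneg_right hEq4 (sq_nonneg n)
  have hH : (10 : ℝ) ^ 13 < E ^ 5 * n ^ 2 := by
    have e : ε ^ 20 * n ^ 4 = (E ^ 5 * n ^ 2) ^ 2 := by rw [hE]; ring
    rw [e] at hbig
    have e' : (10 : ℝ) ^ 26 = (10 ^ 13) ^ 2 := by norm_num
    rw [e'] at hbig
    exact lt_of_pow_lt_pow_left₀ 2 (by positivity) hbig
  have hI : 48 * (433 ^ 4 * n ^ 2) ≤ 1 / 3 * (E ^ 5 * n ^ 4) := by
    have h144 : (144 : ℝ) * 433 ^ 4 ≤ E ^ 5 * n ^ 2 := by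
      have : (144 : ℝ) * 433 ^ 4 ≤ 10 ^ 13 := by norm_num
      linarith
    have h := mul_le_mul_of_nonneg_right h144 (sq_nonneg n)
    have e7 : E ^ 5 * n ^ 2 * n ^ 2 = E ^ 5 * n ^ 4 := by ring
    have e8 : (144 : ℝ) * 433 ^ 4 * n ^ 2 = 3 * (48 * (433 ^ 4 * n ^ 2)) := by ring
    linarith
  have hfin : 1 / 3 * (E ^ 5 * n ^ 4) ≤ 48 * (433 ^ 4 * N) := by linarith
  have hE10 : ε ^ 20 ≤ E ^ 5 := by
    have e : ε ^ 20 = E ^ 5 * E ^ 5 := by rw [hE]; ring
    rw [e]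
    have h5 : E ^ 5 ≤ 1 := pow_le_one₀ hE0.le hE1.le
    have h5' : 0 ≤ E ^ 5 := by positivity
    have := mul_le_mul_of_nonneg_left h5 h5'
    linarith
  have hn4 : 0 ≤ n ^ 4 := by positivity
  have hgoal : ε ^ 20 * n ^ 4 ≤ 10 ^ 26 * N := by
    have s1 : ε ^ 20 * n ^ 4 ≤ E ^ 5 * n ^ 4 := mul_le_mul_of_nonneg_right hE10 hn4
    have s3 : (144 : ℝ) * 433 ^ 4 * N ≤ 10 ^ 26 * N := by
      have : (144 : ℝ) * 433 ^ 4 ≤ 10 ^ 26 := by norm_num
      exact mul_le_mul_of_nonneg_right this hN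
    linarith
  rw [div_mul_eq_mul_div, div_le_iff₀ (by positivity)]
  linarith

/-- Polynomial removal lemma for the ordered `2 × 2` single-one pattern with rows `(1,0)` and
`(0,0)`, with explicit constants: if every pattern-free matrix differs from `A` in at least
`ε n²` entries, then `A` contains at least `10⁻²⁶ ε²⁰ n⁴` ordered copies of the pattern. -/
theorem result : ∀ (n : ℕ) (ε : ℝ) (A : Fin n → Fin n → Bool), 1 ≤ n → 0 < ε → ε < 1 →
    (∀ B : Fin n → Fin n → Bool, PatternFree singleOnePattern B →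
      ε * (n : ℝ) ^ 2 ≤ (diffCount A B : ℝ)) →
    ε ^ 20 / 10 ^ 26 * (n : ℝ) ^ 4 ≤ (copyCount singleOnePattern A : ℝ) := by
  intro n ε A hn hε0 hε1 hfar
  have hnR : (1 : ℝ) ≤ (n : ℝ) := by exact_mod_cast hn
  have hle : (jN A : ℝ) ≤ (copyCount singleOnePattern A : ℝ) := by
    exact_mod_cast jN_le_copyCount A
  -- the matrix is not pattern-free
  have hNpos : 0 < jN A := by
    by_contra h0
    have h0' : jN A = 0 := by omega
    have hfree := patternFree_of_no_jcp A (no_jcp_of_jN_zero A h0')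
    have h := hfar A hfree
    have hz : diffCount A A = 0 := by
      rw [diffCount_eq]
      simp
    rw [hz] at h
    have : 0 < ε * (n : ℝ) ^ 2 := by positivity
    simp at h
    linarith
  have hN1 : (1 : ℝ) ≤ (jN A : ℝ) := by exact_mod_cast hNpos
  by_cases hbig : (10 : ℝ) ^ 26 < ε ^ 20 * (n : ℝ) ^ 4
  · -- main case
    have hpos : 0 < 432 / ε ^ 2 := by positivity
    set q : ℕ := ⌈432 / ε ^ 2⌉₊ with hq
    have hq0 : 0 < q := Nat.ceil_pos.mpr hpos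
    have hqlo : 432 / ε ^ 2 ≤ (q : ℝ) := Nat.le_ceil _
    have hqhi : (q : ℝ) < 432 / ε ^ 2 + 1 := Nat.ceil_lt_add_one hpos.le
    have hε2 : 0 < ε ^ 2 := by positivity
    have hε21 : ε ^ 2 < 1 := by nlinarith
    have hqlo' : 432 ≤ ε ^ 2 * (q : ℝ) := by
      have := mul_le_mul_of_nonneg_left hqlo hε2.le
      rwa [mul_div_cancel₀ _ hε2.ne'] at this
    have hqhi' : ε ^ 2 * (q : ℝ) ≤ 433 := by
      have := mul_lt_mul_of_pos_left hqhi hε2
      rw [mul_add, mul_div_cancel₀ _ hε2.ne'] at this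
      linarith
    obtain ⟨B, hB, s, d, x2, xb, xt, hdiff, hs, hd, h5, h6, h7⟩ :=
      jcore A q hq0 (by omega) hNpos
    have hfarB := hfar B (patternFree_of_no_jcp B hB)
    rw [diffCount_eq] at hfarB
    have hdiffR : ((univ.filter (fun p : Fin n × Fin n => A p.1 p.2 ≠ B p.1 p.2)).card : ℝ)
        ≤ (s : ℝ) + (n : ℝ) * (d : ℝ) := by exact_mod_cast hdiff
    have hsR : (s : ℝ) ^ 2 ≤ (n : ℝ) * (8 * (xb : ℝ) + 16 * xt + 16 * n) := by exact_mod_cast hs
    have hdR : (d : ℝ) ^ 2 ≤ 8 * (q : ℝ) ^ 2 * ((x2 : ℝ) + (q : ℝ) ^ 2) := by exact_mod_cast hd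
    have h5R : (x2 : ℝ) * (n : ℝ) ^ 2 ≤ 3 * (q : ℝ) ^ 2 * (jN A : ℝ) := by exact_mod_cast h5
    have h6R : (xb : ℝ) * ((q : ℝ) + 1) ≤ 3 * (n : ℝ) ^ 3 := by exact_mod_cast h6
    have h7R : (xt : ℝ) * ((q : ℝ) + 1) ≤ 3 * (n : ℝ) ^ 3 := by exact_mod_cast h7
    have hq1 : (1 : ℝ) ≤ (q : ℝ) := by exact_mod_cast hq0
    have := numeric ε n q (jN A) s d x2 xb xt hε0 hε1 hnR hq1 hqlo' hqhi'
      (by positivity) (by positivity) (by positivity) (le_trans hfarB hdiffR) hsR hdR h5R h6R h7R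
      hbig
    linarith
  · -- small case: at least one copy suffices
    have h1 : ε ^ 20 / 10 ^ 26 * (n : ℝ) ^ 4 ≤ 1 := by
      rw [div_mul_eq_mul_div, div_le_iff₀ (by positivity)]
      linarith
    linarith

end Vale.Agent.Results.P037.H20_SingleOneRemoval
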