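import Mathlib
import Vale.Agent.Lib.P037.H20.PDefs
import Vale.Agent.Lib.P037.H20.Sym
import Vale.Agent.Lib.P037.H20.Degen
import Vale.Agent.Results.P037.H20_SingleOneRemoval
import Vale.Agent.Lib.P037.H20.IdMain

namespace Vale.Agent.Results.P037.H20_AllTwoByTwo

open Vale.Agent.Lib.P037.H20

/-- The single-one pattern with rows `(1,0)` and `(0,0)`. -/
def patJ : Fin 2 → Fin 2 → Bool := fun i j => decide (i = 0 ∧ j = 0)

/-- The identity pattern with rows `(1,0)` and `(0,1)`. -/
def patI : Fin 2 → Fin 2 → Bool := fun i j => decide (i = j)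

theorem remJ : Rem (10 ^ 26) patJ := by
  intro n ε A hn h0 h1 hfar
  exact Vale.Agent.Results.P037.H20_SingleOneRemoval.result n ε A hn h0 h1 hfar

theorem remI : Rem (10 ^ 26) patI := by
  intro n ε A hn h0 h1 hfar
  have h := Vale.Agent.Lib.P037.H20.Id.idRemoval n ε A hn h0 h1 hfar
  refine le_trans ?_ h
  have hn4 : (0 : ℝ) ≤ (n : ℝ) ^ 4 := by positivity
  apply mul_le_mul_of_nonneg_right _ hn4
  apply div_le_div_of_nonneg_left (by positivity) (by positivity)
  norm_num

theorem rem_of_true (H : Fin 2 → Fin 2 → Bool) (h00 : H 0 0 = true) : Rem (10 ^ 26) H := by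
  cases h01 : H 0 1 <;> cases h10 : H 1 0 <;> cases h11 : H 1 1
  · -- rows (1,0),(0,0)
    have e : H = patJ := by
      funext i j
      fin_cases i <;> fin_cases j <;> simp [patJ, h00, h01, h10, h11]
    rw [e]
    exact remJ
  · -- rows (1,0),(0,1)
    have e : H = patI := by
      funext i j
      fin_cases i <;> fin_cases j <;> simp [patI, h00, h01, h10, h11]
    rw [e]
    exact remI
  · -- rows (1,0),(1,0)
    have e : H = (fun _ j => (![true, false] : Fin 2 → Bool) j) := by
      funext i j
      fin_cases i <;> fin_cases j <;> simp [h00, h01, h10, h11]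
    rw [e]
    exact Rem_eqrows _
  · -- rows (1,0),(1,1)
    have e : H = mcompl (mcrev patJ) := by
      funext i j
      fin_cases i <;> fin_cases j <;> simp [patJ, mcompl, mcrev, h00, h01, h10, h11]
    rw [e]
    exact Rem_compl _ _ (Rem_crev _ _ remJ)
  · -- rows (1,1),(0,0)
    have e : H = mtransp (fun _ j => (![true, false] : Fin 2 → Bool) j) := by
      funext i j
      fin_cases i <;> fin_cases j <;> simp [mtransp, h00, h01, h10, h11]
    rw [e]
    exact Rem_transp _ _ (Rem_eqrows _)
  · -- rows (1,1),(0,1)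
    have e : H = mcompl (mrrev patJ) := by
      funext i j
      fin_cases i <;> fin_cases j <;> simp [patJ, mcompl, mrrev, h00, h01, h10, h11]
    rw [e]
    exact Rem_compl _ _ (Rem_rrev _ _ remJ)
  · -- rows (1,1),(1,0)
    have e : H = mcompl (mrrev (mcrev patJ)) := by
      funext i j
      fin_cases i <;> fin_cases j <;> simp [patJ, mcompl, mrrev, mcrev, h00, h01, h10, h11]
    rw [e]
    exact Rem_compl _ _ (Rem_rrev _ _ (Rem_crev _ _ remJ))
  · -- rows (1,1),(1,1)
    have e : H = (fun _ j => (![true, true] : Fin 2 → Bool) j) := by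
      funext i j
      fin_cases i <;> fin_cases j <;> simp [h00, h01, h10, h11]
    rw [e]
    exact Rem_eqrows _

theorem rem_all (H : Fin 2 → Fin 2 → Bool) : Rem (10 ^ 26) H := by
  cases h00 : H 0 0
  · have h := rem_of_true (mcompl H) (by simp [mcompl, h00])
    have h2 := Rem_compl _ _ h
    rwa [mcompl_mcompl] at h2
  · exact rem_of_true H h00

/-- Polynomial removal lemma for every ordered `2 × 2` binary pattern, with explicit constants:
for every `2 × 2` binary matrix `H`, if every `H`-free `n × n` binary matrix differs from `A` in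
at least `ε n²` entries, then `A` contains at least `10⁻²⁶ ε²⁰ n⁴` ordered copies of `H`. -/
theorem result : ∀ (H : Fin 2 → Fin 2 → Bool) (n : ℕ) (ε : ℝ) (A : Fin n → Fin n → Bool),
    1 ≤ n → 0 < ε → ε < 1 →
    (∀ B : Fin n → Fin n → Bool, PatternFree H B →
      ε * (n : ℝ) ^ 2 ≤ (diffCount A B : ℝ)) →
    ε ^ 20 / 10 ^ 26 * (n : ℝ) ^ 4 ≤ (copyCount H A : ℝ) :=
  fun H => rem_all H

end Vale.Agent.Results.P037.H20_AllTwoByTwo
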