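import Mathlib
import Vale.Agent.Lib.P037.H20.PDefs
import Vale.Agent.Lib.P037.H20.BlowE
import Vale.Agent.Results.P037.H20_AllTwoByTwo

namespace Vale.Agent.Results.P037.H20_BlockPatterns

open Vale.Agent.Lib.P037.H20 Vale.Agent.Lib.P037.H20.Blow Finset

theorem free_of_free {k n : ℕ} (H : Fin k → Fin k → Bool) (a b : ℕ) (H' : Fin 2 → Fin 2 → Bool)
    (ha : 0 < a) (hak : a < k) (hb : 0 < b) (hbk : b < k)
    (hH : ∀ i j, H i j = H' (if i.val < a then 0 else 1) (if j.val < b then 0 else 1))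
    (B : Fin n → Fin n → Bool) (hB : PatternFree H' B) : PatternFree H B := by
  intro r c hr hc hall
  have hk0 : 0 < k := by omega
  have hk1 : k - 1 < k := by omega
  apply hB (![r ⟨0, hk0⟩, r ⟨k - 1, hk1⟩]) (![c ⟨0, hk0⟩, c ⟨k - 1, hk1⟩])
  · intro i j hij
    fin_cases i <;> fin_cases j <;> simp at hij ⊢
    apply hr
    rw [Fin.lt_def]
    simp only
    omega
  · intro i j hij
    fin_cases i <;> fin_cases j <;> simp at hij ⊢
    apply hc
    rw [Fin.lt_def]
    simp only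
    omega
  · intro i j
    have hna : ¬ (k - 1 < a) := by omega
    have hnb : ¬ (k - 1 < b) := by omega
    fin_cases i <;> fin_cases j <;> simp [hall, hH, ha, hb, hna, hnb]

theorem one_le_of_far {k n : ℕ} (H : Fin k → Fin k → Bool) (ε : ℝ) (A : Fin n → Fin n → Bool)
    (hn : 1 ≤ n) (h0 : 0 < ε)
    (hfar : ∀ B : Fin n → Fin n → Bool, PatternFree H B →
      ε * (n : ℝ) ^ 2 ≤ (diffCount A B : ℝ)) : 1 ≤ copyCount H A := by
  by_contra hN
  have hz : copyCount H A = 0 := by omega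
  unfold copyCount at hz
  rw [Nat.card_eq_zero] at hz
  rcases hz with hz | hz
  · have hfree : PatternFree H A := by
      intro r c hr hc hall
      exact hz.elim ⟨(r, c), hr, hc, hall⟩
    have h1 := hfar A hfree
    have h2 : diffCount A A = 0 := by
      unfold diffCount
      rw [Nat.card_eq_zero]
      left
      exact ⟨fun x => x.2 rfl⟩
    rw [h2] at h1
    have hn0 : (0 : ℝ) < n := by exact_mod_cast hn
    have : 0 < ε * (n : ℝ) ^ 2 := by positivity
    simp at h1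
    linarith
  · exact hz.not_finite (Finite.of_fintype _)

theorem numeric (θ v Φ K N : ℝ) (L : ℕ) (hθ0 : 0 < θ) (hθ1 : θ ≤ 1) (hv : 1 ≤ v) (hΦ : 1 ≤ Φ)
    (hK : 1 ≤ K) (hN : 1 ≤ N)
    (hmain : θ * v ^ (L + 1) ≤ Φ * N + K * v ^ L) :
    min (1 / (2 * Φ)) (1 / (2 * K) ^ (L + 1)) * θ ^ (L + 1) * v ^ (L + 1) ≤ N := by
  have hv0 : 0 < v := by linarith
  have hc1 : min (1 / (2 * Φ)) (1 / (2 * K) ^ (L + 1)) ≤ 1 / (2 * Φ) := min_le_left _ _
  have hc2 : min (1 / (2 * Φ)) (1 / (2 * K) ^ (L + 1)) ≤ 1 / (2 * K) ^ (L + 1) := min_le_right _ _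
  have hc0 : 0 < min (1 / (2 * Φ)) (1 / (2 * K) ^ (L + 1)) := by
    apply lt_min <;> positivity
  have hθL : θ ^ (L + 1) ≤ θ := by
    calc θ ^ (L + 1) = θ ^ L * θ := pow_succ θ L
      _ ≤ 1 * θ := by
        apply mul_le_mul_of_nonneg_right _ hθ0.le
        exact pow_le_one₀ hθ0.le hθ1
      _ = θ := one_mul θ
  by_cases hcase : 2 * K ≤ θ * v
  · have h1 : K * v ^ L ≤ θ * v ^ (L + 1) / 2 := by
      have : θ * v ^ (L + 1) = (θ * v) * v ^ L := by ring
      rw [this]
      have hvL : 0 ≤ v ^ L := by positivity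
      nlinarith
    have h2 : θ * v ^ (L + 1) / 2 ≤ Φ * N := by linarith
    have h3 : θ * v ^ (L + 1) / (2 * Φ) ≤ N := by
      rw [div_le_iff₀ (by positivity)]
      linarith
    calc min (1 / (2 * Φ)) (1 / (2 * K) ^ (L + 1)) * θ ^ (L + 1) * v ^ (L + 1)
        ≤ (1 / (2 * Φ)) * θ * v ^ (L + 1) := by
          apply mul_le_mul_of_nonneg_right _ (by positivity)
          exact mul_le_mul hc1 hθL (by positivity) (by positivity)
      _ = θ * v ^ (L + 1) / (2 * Φ) := by ring
      _ ≤ N := h3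
  · have hlt : θ * v < 2 * K := not_le.mp hcase
    have h1 : (θ * v) ^ (L + 1) ≤ (2 * K) ^ (L + 1) :=
      pow_le_pow_left₀ (by positivity) hlt.le _
    calc min (1 / (2 * Φ)) (1 / (2 * K) ^ (L + 1)) * θ ^ (L + 1) * v ^ (L + 1)
        ≤ (1 / (2 * K) ^ (L + 1)) * θ ^ (L + 1) * v ^ (L + 1) := by
          apply mul_le_mul_of_nonneg_right _ (by positivity)
          exact mul_le_mul_of_nonneg_right hc2 (by positivity)
      _ = (θ * v) ^ (L + 1) / (2 * K) ^ (L + 1) := by rw [mul_pow]; ring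
      _ ≤ 1 := by
        rw [div_le_one (by positivity)]
        exact h1
      _ ≤ N := hN

/-- Polynomial removal lemma for every `k × k` binary pattern that is constant on the four blocks
cut out by a row threshold `a` and a column threshold `b` (an interval blow-up of a `2 × 2`
pattern `H'`): there are constants `c > 0` and `C` such that every `n × n` binary matrix that is
`ε`-far from containing no ordered copy of `H` contains at least `c ε^C n^(2k)` ordered copies. -/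
theorem result : ∀ (k : ℕ) (H : Fin k → Fin k → Bool) (a b : ℕ) (H' : Fin 2 → Fin 2 → Bool),
    0 < a → a < k → 0 < b → b < k →
    (∀ i j, H i j = H' (if i.val < a then 0 else 1) (if j.val < b then 0 else 1)) →
    ∃ c : ℝ, 0 < c ∧ ∃ C : ℕ, ∀ (n : ℕ) (ε : ℝ) (A : Fin n → Fin n → Bool),
      1 ≤ n → 0 < ε → ε < 1 →
      (∀ B : Fin n → Fin n → Bool, PatternFree H B →
        ε * (n : ℝ) ^ 2 ≤ (diffCount A B : ℝ)) →
      c * ε ^ C * (n : ℝ) ^ (2 * k) ≤ (copyCount H A : ℝ) := by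
  intro k H a b H' ha hak hb hbk hH
  set M : ℕ := a * (k - a) * b * (k - b) with hM
  set Φ : ℕ := a.factorial * ((k - a).factorial * (b.factorial * (k - b).factorial)) with hΦ
  set K : ℕ := a * a + (k - a) * (k - a) + b * b + (k - b) * (k - b) with hK
  obtain ⟨L, hL⟩ : ∃ L, 2 * k = L + 1 := ⟨2 * k - 1, by omega⟩
  have hΦ1 : 1 ≤ Φ := by
    rw [hΦ]
    exact Nat.succ_le_of_lt (by positivity)
  have hK1 : 1 ≤ K := by
    rw [hK]
    have : 1 ≤ a * a := Nat.mul_pos ha ha
    omega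
  have hΦr : (1 : ℝ) ≤ (Φ : ℝ) := by exact_mod_cast hΦ1
  have hKr : (1 : ℝ) ≤ (K : ℝ) := by exact_mod_cast hK1
  refine ⟨min (1 / (2 * (Φ : ℝ))) (1 / (2 * (K : ℝ)) ^ (L + 1)) / 10 ^ (26 * (M * (L + 1))),
    ?_, 20 * (M * (L + 1)), ?_⟩
  · apply div_pos _ (by positivity)
    apply lt_min <;> positivity
  intro n ε A hn h0 h1 hfar
  have hn0 : (0 : ℝ) < n := by exact_mod_cast hn
  have hn1 : (1 : ℝ) ≤ n := by exact_mod_cast hn
  -- far from the two-by-two pattern
  have hfar' : ∀ B : Fin n → Fin n → Bool, PatternFree H' B →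
      ε * (n : ℝ) ^ 2 ≤ (diffCount A B : ℝ) :=
    fun B hB => hfar B (free_of_free H a b H' ha hak hb hbk hH B hB)
  have hrem := Vale.Agent.Results.P037.H20_AllTwoByTwo.rem_all H' n ε A hn h0 h1 hfar'
  set δ : ℝ := ε ^ 20 / 10 ^ 26 with hδ
  have hδ0 : 0 < δ := by positivity
  have hδ1 : δ ≤ 1 := by
    rw [hδ, div_le_one (by positivity)]
    have : ε ^ 20 ≤ 1 := pow_le_one₀ h0.le h1.le
    linarith [show (1 : ℝ) ≤ 10 ^ 26 by norm_num]
  -- density of copies of the two-by-two pattern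
  have hS0 : δ ≤ S0 H' A / (n : ℝ) ^ 4 := by
    rw [le_div_iff₀ (by positivity), S0_eq]
    have hle : (copyCount H' A : ℝ) ≤ ((X0 H' A).card : ℝ) := by
      exact_mod_cast copyCount_le_X0 H' A
    linarith
  have hchain := chain' H' A hn a (k - a) b (k - b) ha (by omega) hb (by omega)
  have hLL : a + (k - a) + b + (k - b) = L + 1 := by omega
  rw [hLL] at hchain
  set θ : ℝ := δ ^ M with hθ
  have hθ0 : 0 < θ := by positivity
  have hθ1 : θ ≤ 1 := pow_le_one₀ hδ0.le hδ1
  have hX4 : θ * (n : ℝ) ^ (L + 1) ≤ ((X4 H' A a (k - a) b (k - b)).card : ℝ) := by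
    have h2 : θ ≤ S4 H' A a (k - a) b (k - b) / (n : ℝ) ^ (L + 1) :=
      le_trans (pow_le_pow_left₀ hδ0.le hS0 M) hchain
    rw [le_div_iff₀ (by positivity), S4_eq] at h2
    exact h2
  -- from configurations to copies
  have hsplit := Finset.card_filter_add_card_filter_not
    (s := X4 H' A a (k - a) b (k - b)) (p := AllInj)
  have hneg : ((X4 H' A a (k - a) b (k - b)).filter (fun x => ¬ AllInj x)).card ≤
      K * n ^ L := by
    have h3 := card_not_allInj (n := n) a (k - a) b (k - b) ha (by omega) hb (by omega)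
    have h4 : ((X4 H' A a (k - a) b (k - b)).filter (fun x => ¬ AllInj x)).card ≤
        ((univ : Finset ((Fin a → Fin n) × (Fin (k - a) → Fin n) × (Fin b → Fin n) ×
          (Fin (k - b) → Fin n))).filter (fun x => ¬ AllInj x)).card :=
      Finset.card_le_card (Finset.filter_subset_filter _ (Finset.subset_univ _))
    have e : a + (k - a) + b + (k - b) - 1 = L := by omega
    rw [e] at h3
    exact le_trans h4 h3
  have hinj := card_inj_le H' A a (k - a) b (k - b)
  have hsm := SM4_le_copyCount H' A k a b ha hak hb hbk H hH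
  have hmainN : (X4 H' A a (k - a) b (k - b)).card ≤ Φ * copyCount H A + K * n ^ L := by
    have h5 : ((X4 H' A a (k - a) b (k - b)).filter AllInj).card ≤ copyCount H A * Φ :=
      le_trans hinj (Nat.mul_le_mul_right _ hsm)
    nlinarith [h5, hneg, hsplit]
  have hmain : θ * (n : ℝ) ^ (L + 1) ≤ (Φ : ℝ) * (copyCount H A : ℝ) + (K : ℝ) * (n : ℝ) ^ L := by
    refine le_trans hX4 ?_
    exact_mod_cast hmainN
  have hN1 : (1 : ℝ) ≤ (copyCount H A : ℝ) := by
    exact_mod_cast one_le_of_far H ε A hn h0 hfar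
  have hfin := numeric θ n Φ K (copyCount H A) L hθ0 hθ1 hn1 hΦr hKr hN1 hmain
  rw [hL]
  have e2 : min (1 / (2 * (Φ : ℝ))) (1 / (2 * (K : ℝ)) ^ (L + 1)) / 10 ^ (26 * (M * (L + 1))) *
      ε ^ (20 * (M * (L + 1))) =
      min (1 / (2 * (Φ : ℝ))) (1 / (2 * (K : ℝ)) ^ (L + 1)) * θ ^ (L + 1) := by
    rw [hθ, hδ, ← pow_mul, div_pow, ← pow_mul, ← pow_mul]
    ring
  rw [e2]
  exact hfin

end Vale.Agent.Results.P037.H20_BlockPatterns
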